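import Vale.Agent.H91.PTSMap

/-!
# The Barendregt-Geuvers-Klop conjecture reduces to finitely many sorts

Every weakly normalizing pure type system (with an arbitrary type of sorts, arbitrary
axioms and rules) is strongly normalizing if and only if this holds for all pure type
systems whose type of sorts is `Fin n` for some natural number `n`.
-/

namespace Vale.Agent.Results.P340.A_FiniteSorts

open Vale.Agent.H91.PTS

universe u

theorem result :
    (∀ (S : Type u) (P : Spec S), WN P → SN P) ↔
      (∀ (n : ℕ) (P : Spec (Fin n)), WN P → SN P) := by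
  constructor
  · intro hall n P hWN
    let P' : Spec (ULift.{u} (Fin n)) :=
      ⟨fun a b => P.ax a.down b.down, fun a b c => P.rule a.down b.down c.down⟩
    have hWN' : WN P' :=
      wn_of_map (P := P') (Q := P) ULift.down (fun _ _ h => h) (fun _ _ _ h => h) hWN
    have hSN' : SN P' := hall _ P' hWN'
    exact sn_of_map (P := P) (Q := P') ULift.up (fun _ _ h => h) (fun _ _ _ h => h) hSN'
  · intro hfin S P hWN M hM hinf
    obtain ⟨f, hf0, hf⟩ := hinf
    classical
    obtain ⟨Γ, N, hT⟩ := hM
    have key : ∃ (L : Finset S) (Γ : List (Tm S)) (N : Tm S),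
        Typing (P.restrict L) Γ M N ∨ Typing (P.restrict L) Γ N M := by
      rcases hT with h | h
      · obtain ⟨L, hL⟩ := typing_finite_support h
        exact ⟨L, Γ, N, Or.inl hL⟩
      · obtain ⟨L, hL⟩ := typing_finite_support h
        exact ⟨L, Γ, N, Or.inr hL⟩
    obtain ⟨L, Γ', N', hT'⟩ := key
    have hax : ∃ a b, (P.restrict L).ax a b := by
      rcases hT' with h | h
      · exact typing_exists_ax h
      · exact typing_exists_ax h
    obtain ⟨a, b, hab, haL, hbL⟩ := hax
    let e := L.equivFin
    let r : S → Fin L.card := fun s => if h : s ∈ L then e ⟨s, h⟩ else e ⟨a, haL⟩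
    let g : Fin L.card → S := fun i => (e.symm i).1
    let P1 : Spec (Fin L.card) :=
      ⟨fun i j => P.ax (g i) (g j), fun i j k => P.rule (g i) (g j) (g k)⟩
    have hgr : ∀ s, s ∈ L → g (r s) = s := by
      intro s hs
      simp only [g, r, dif_pos hs, Equiv.symm_apply_apply]
    have hWN1 : WN P1 :=
      wn_of_map (P := P1) (Q := P) g (fun _ _ h => h) (fun _ _ _ h => h) hWN
    have hSN1 : SN P1 := hfin _ P1 hWN1
    have hmapax : ∀ x y, (P.restrict L).ax x y → P1.ax (r x) (r y) := by
      intro x y hxy
      obtain ⟨h1, h2, h3⟩ := hxy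
      show P.ax (g (r x)) (g (r y))
      rw [hgr x h2, hgr y h3]
      exact h1
    have hmaprule : ∀ x y z, (P.restrict L).rule x y z → P1.rule (r x) (r y) (r z) := by
      intro x y z hxyz
      obtain ⟨h1, h2, h3, h4⟩ := hxyz
      show P.rule (g (r x)) (g (r y)) (g (r z))
      rw [hgr x h2, hgr y h3, hgr z h4]
      exact h1
    have hleg1 : Legal P1 (Tm.map r M) := by
      rcases hT' with h | h
      · exact ⟨_, _, Or.inl (typing_map r hmapax hmaprule h)⟩
      · exact ⟨_, _, Or.inr (typing_map r hmapax hmaprule h)⟩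
    exact hSN1 _ hleg1
      ⟨fun n => Tm.map r (f n), by simp only [hf0], fun n => step_map r (hf n)⟩

end Vale.Agent.Results.P340.A_FiniteSorts
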