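import Vale.Agent.Results.P340.A_FiniteSorts

/-!
# The Barendregt-Geuvers-Klop conjecture reduces to finitely many sorts, in both forms

The problem file states the question in two forms: the conjecture (every weakly normalizing pure
type system is strongly normalizing) and the existence of a counterexample (a pure type system
that is weakly but not strongly normalizing). Both reduce to pure type systems whose type of
sorts is `Fin n`: the first conjunct is the statement of `A_FiniteSorts`, the second is its
contrapositive form and follows from the first by logic.
-/

namespace Vale.Agent.Results.P340.B_FiniteSortsBothForms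

open Vale.Agent.H91.PTS

universe u

theorem result :
    ((∀ (S : Type u) (P : Spec S), WN P → SN P) ↔
      (∀ (n : ℕ) (P : Spec (Fin n)), WN P → SN P)) ∧
    ((∃ (S : Type u) (P : Spec S), WN P ∧ ¬ SN P) ↔
      (∃ (n : ℕ) (P : Spec (Fin n)), WN P ∧ ¬ SN P)) := by
  have h := Vale.Agent.Results.P340.A_FiniteSorts.result.{u}
  refine ⟨h, ?_⟩
  constructor
  · rintro ⟨S, P, hW, hS⟩
    by_contra hcon
    exact hS (h.mpr (fun n Q hQ => Classical.byContradiction fun hn => hcon ⟨n, Q, hQ, hn⟩)
      S P hW)
  · rintro ⟨n, P, hW, hS⟩
    by_contra hcon
    exact hS (h.mp (fun T Q hQ => Classical.byContradiction fun hn => hcon ⟨T, Q, hQ, hn⟩)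
      n P hW)

end Vale.Agent.Results.P340.B_FiniteSortsBothForms
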